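import Vale.Agent.P223.R2.H84.Spec
import Vale.Agent.P223.X.WtX
import Vale.Agent.P223.H.Norm

/-! Block B4b : the pointwise estimate for the pulled back partition of unity. -/

namespace Vale.Agent.P223.R2.H791

open scoped ContDiff Topology ENNReal
open MeasureTheory Vale.Agent.P223.H Vale.Agent.P223.X Vale.Agent.P223.R2.H84 Set Filter

theorem specPt : SpecPt := by
  intro n M N X W Γ I I' _ _ _ _ _ _ _ _ _ _ _ C C' F hF G hG P P' hP hPP l hl i γ y j γ₀ Φ hΦ hev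
  -- the value of the function with index `l 0`
  have e0 : C'.rep (P'.fn (l 0)) γ i y = P'.φ () (γ • C'.ψ i y) := by
    rw [Cov.rep, PUX.fn, hl]; simp
  have hP' : ∀ w, 0 ≤ P'.φ () w := fun w => by rw [hPP]; exact hP _
  -- the local formula
  have hloc : ∀ k : Fin n, C'.rep (P'.fn (l k.succ)) γ i =ᶠ[𝓝 y]
      fun z => C.rep (P.fn (l k.succ)) (γ * γ₀) j (Φ z) := by
    intro k
    filter_upwards [hev] with z hz
    show P'.φ () ((l k.succ).1⁻¹ • γ • C'.ψ i z) =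
      P.φ () ((l k.succ).1⁻¹ • (γ * γ₀) • C.ψ j (Φ z))
    rw [hPP, hF.equiv, hF.equiv, hz, mul_smul]
  have hj : jdet (fun k : Fin n => C'.rep (P'.fn (l k.succ)) γ i) y =
      (fderiv ℝ Φ y).det * jdet (fun k : Fin n => C.rep (P.fn (l k.succ)) (γ * γ₀) j) (Φ y) := by
    rw [DensX.jdet_congr hloc, DensX.jdet_comp
      (fun k : Fin n => C.rep (P.fn (l k.succ)) (γ * γ₀) j) Φ y
      (fun k => ((WtX.fn_cc P (l k.succ)).1 (γ * γ₀) j).differentiable one_ne_zero _) hΦ]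
  have hy : F (γ • C'.ψ i y) = (γ * γ₀) • C.ψ j (Φ y) := by
    rw [hF.equiv, hev.self_of_nhds, mul_smul]
  have e1 : ∀ k : Fin n, gradSq (G j) (C.rep (P.fn (l k.succ)) (γ * γ₀) j) (Φ y) =
      gsX C G (P.φ ()) (F ((l k.succ).1⁻¹ • γ • C'.ψ i y)) := by
    intro k
    rw [hF.equiv, hy, ← gsX_eq hG]
    exact gsX_smul hG (P.φ ()) (l k.succ).1⁻¹ ((γ * γ₀) • C.ψ j (Φ y))
  have h := Norm.jdet_le (G j) (fun k : Fin n => C.rep (P.fn (l k.succ)) (γ * γ₀) j) (Φ y)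
    (hG.pos j (Φ y))
  simp only [e1] at h
  rw [e0, hj, abs_mul, abs_mul, abs_of_nonneg (hP' _)]
  rw [← ENNReal.ofReal_prod_of_nonneg fun i _ => Real.sqrt_nonneg _,
    ← ENNReal.ofReal_mul (hP' _), ← ENNReal.ofReal_mul
      (mul_nonneg (hP' _) (Finset.prod_nonneg fun i _ => Real.sqrt_nonneg _))]
  refine ENNReal.ofReal_le_ofReal ?_
  rw [mul_assoc]
  refine mul_le_mul_of_nonneg_left ?_ (hP' _)
  calc |(fderiv ℝ Φ y).det| * |jdet (fun k : Fin n => C.rep (P.fn (l k.succ)) (γ * γ₀) j) (Φ y)|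
      ≤ |(fderiv ℝ Φ y).det| * (H.dens (G j) (Φ y) * ∏ k : Fin n,
          √(gsX C G (P.φ ()) (F ((l k.succ).1⁻¹ • γ • C'.ψ i y)))) :=
        mul_le_mul_of_nonneg_left h (abs_nonneg _)
    _ = _ := by ring

end Vale.Agent.P223.R2.H791
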